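import Vale.Agent.Lib.P143.Universal
import Vale.Agent.Lib.P143.Cayley

/-!
# P143: the free uniform spanning forest is a factor of IID (both clauses)
-/

namespace Vale.Agent.Results.P143.A_Q1_full

open Vale.Agent.Lib.P143 MeasureTheory

/-- Both clauses of the question.  First: for every group `Γ` with a finite generating set `S`
the free uniform spanning forest of the Cayley graph exists, is unique and is a `Γ`-factor of IID.
Second: there is one function `Φ(G, U, e)` of graphs `G` on `ℕ`, vertex labels `U` and pairs `e`,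
jointly Borel in `(G, U)`, invariant under all relabellings of `ℕ`, such that for every connected
locally finite graph `G`, under IID uniform labels, the edge set `{e ∈ E(G) : Φ(G, U, e)}` has the
law of the free uniform spanning forest of `G`, which exists and is unique. -/
theorem result.{u} :
    (∀ (Γ : Type u) [Group Γ] (S : Finset Γ), Subgroup.closure (S : Set Γ) = ⊤ →
      ∃ μ : Measure ((cayley S).edgeSet → Bool), IsProbabilityMeasure μ ∧ IsFUSF (cayley S) μ ∧
        IsGammaFactorOfIID S μ ∧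
        ∀ ν : Measure ((cayley S).edgeSet → Bool), IsProbabilityMeasure ν →
          IsFUSF (cayley S) ν → ν = μ) ∧
    ∃ Φ : SimpleGraph ℕ → (ℕ → unitInterval) → Sym2 ℕ → Bool,
      (∀ e, Measurable fun p : (ℕ × ℕ → Bool) × (ℕ → unitInterval) =>
        Φ (graphOfBits p.1) p.2 e) ∧
      (∀ (g : Equiv.Perm ℕ) (G : SimpleGraph ℕ), IsGoodGraph G → ∀ U e,
        Φ (G.map g.toEmbedding) (fun v => U (g.symm v)) (Sym2.map g e) = Φ G U e) ∧
      ∀ G : SimpleGraph ℕ, IsGoodGraph G → ∃ μ : Measure (G.edgeSet → Bool),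
        IsProbabilityMeasure μ ∧ IsFUSF G μ ∧
        (Measure.infinitePi fun _ : ℕ => (volume : Measure unitInterval)).map
          (fun U (e : G.edgeSet) => Φ G U e.1) = μ ∧
        ∀ ν : Measure (G.edgeSet → Bool), IsProbabilityMeasure ν → IsFUSF G ν → ν = μ := by
  refine ⟨fun Γ _ S hS => ?_, ?_⟩
  · obtain ⟨μ, hp, hμ⟩ := exists_isFUSF (cayley S)
    refine ⟨μ, hp, hμ, isGammaFactorOfIID_of_isFUSF hS hμ, fun ν hν hνF => ?_⟩
    refine ext_of_generate_finite _ generateFrom_cyl isPiSystem_cyl ?_
      (by rw [measure_univ, measure_univ])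
    rintro _ ⟨A, σ, rfl⟩
    have h1 := hμ _ (ballH_exhaustion hS) A σ
    have h2 := hνF _ (ballH_exhaustion hS) A σ
    have h3 := tendsto_nhds_unique h2 h1
    exact (ENNReal.toReal_eq_toReal_iff' (measure_ne_top _ _) (measure_ne_top _ _)).mp h3
  · obtain ⟨Φ, h1, h2, h3⟩ := universal_factor
    refine ⟨Φ, h1, h2, fun G hG => ?_⟩
    obtain ⟨μ, hp, hμ, hlaw⟩ := h3 G hG
    refine ⟨μ, hp, hμ, hlaw, fun ν hν hνF => ?_⟩
    refine ext_of_generate_finite _ generateFrom_cyl isPiSystem_cyl ?_
      (by rw [measure_univ, measure_univ])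
    rintro _ ⟨A, σ, rfl⟩
    have h4 := hμ _ (Hcan_exhaustion G hG.1) A σ
    have h5 := hνF _ (Hcan_exhaustion G hG.1) A σ
    have h6 := tendsto_nhds_unique h5 h4
    exact (ENNReal.toReal_eq_toReal_iff' (measure_ne_top _ _) (measure_ne_top _ _)).mp h6

end Vale.Agent.Results.P143.A_Q1_full
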