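import Vale.Agent.Lib.P143.Cayley

/-!
# P143: the free uniform spanning forest of every Cayley graph is a factor of IID
-/

namespace Vale.Agent.Results.P143.A_cayley

open Vale.Agent.Lib.P143

/-- For every group `Γ` with a finite generating set `S`, the free uniform spanning forest of the
Cayley graph is a `Γ`-factor of IID. -/
theorem result {Γ : Type*} [Group Γ] (S : Finset Γ) (hS : Subgroup.closure (S : Set Γ) = ⊤)
    (μ : MeasureTheory.Measure ((cayley S).edgeSet → Bool)) [MeasureTheory.IsProbabilityMeasure μ]
    (hμ : IsFUSF (cayley S) μ) : IsGammaFactorOfIID S μ :=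
  isGammaFactorOfIID_of_isFUSF hS hμ

end Vale.Agent.Results.P143.A_cayley
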