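import Vale.Agent.Lib.P143.Cayley
import Vale.Agent.Lib.P143.FUSFExists

/-!
# P143: the free uniform spanning forest of every Cayley graph exists and is a factor of IID
-/

namespace Vale.Agent.Results.P143.A_cayley_full

open Vale.Agent.Lib.P143 MeasureTheory

/-- For every group `Γ` with a finite generating set `S`: the free uniform spanning forest of the
Cayley graph exists, is unique, and is a `Γ`-factor of IID. -/
theorem result {Γ : Type*} [Group Γ] (S : Finset Γ) (hS : Subgroup.closure (S : Set Γ) = ⊤) :
    ∃ μ : Measure ((cayley S).edgeSet → Bool), IsProbabilityMeasure μ ∧ IsFUSF (cayley S) μ ∧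
      IsGammaFactorOfIID S μ ∧
      ∀ ν : Measure ((cayley S).edgeSet → Bool), IsProbabilityMeasure ν → IsFUSF (cayley S) ν →
        ν = μ := by
  obtain ⟨μ, hp, hμ⟩ := exists_isFUSF (cayley S)
  refine ⟨μ, hp, hμ, isGammaFactorOfIID_of_isFUSF hS hμ, fun ν hν hνF => ?_⟩
  refine ext_of_generate_finite _ generateFrom_cyl isPiSystem_cyl ?_
    (by rw [measure_univ, measure_univ])
  rintro _ ⟨A, σ, rfl⟩
  have h1 := hμ _ (ballH_exhaustion hS) A σ
  have h2 := hνF _ (ballH_exhaustion hS) A σ
  have h3 := tendsto_nhds_unique h2 h1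
  exact (ENNReal.toReal_eq_toReal_iff' (measure_ne_top _ _) (measure_ne_top _ _)).mp h3

end Vale.Agent.Results.P143.A_cayley_full
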