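import Vale.Agent.Lib.P143.Universal

/-!
# P143: the free uniform spanning forest is a graph factor of IID
-/

namespace Vale.Agent.Results.P143.A_universal

open Vale.Agent.Lib.P143 MeasureTheory

/-- There is one function `Φ(G, U, e)` of graphs `G` on `ℕ`, vertex labels `U` and pairs `e`,
jointly Borel in `(G, U)` (graphs being coded by their adjacency bits), invariant under all
relabellings of `ℕ`, such that for every connected locally finite graph `G`, under IID uniform
labels, the edge set `{e ∈ E(G) : Φ(G, U, e)}` has the law of the free uniform spanning forest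
of `G`, which exists and is unique. -/
theorem result :
    ∃ Φ : SimpleGraph ℕ → (ℕ → unitInterval) → Sym2 ℕ → Bool,
      (∀ e, Measurable fun p : (ℕ × ℕ → Bool) × (ℕ → unitInterval) =>
        Φ (graphOfBits p.1) p.2 e) ∧
      (∀ (g : Equiv.Perm ℕ) (G : SimpleGraph ℕ), IsGoodGraph G → ∀ U e,
        Φ (G.map g.toEmbedding) (fun v => U (g.symm v)) (Sym2.map g e) = Φ G U e) ∧
      ∀ G : SimpleGraph ℕ, IsGoodGraph G → ∃ μ : Measure (G.edgeSet → Bool),
        IsProbabilityMeasure μ ∧ IsFUSF G μ ∧
        (Measure.infinitePi fun _ : ℕ => (volume : Measure unitInterval)).map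
          (fun U (e : G.edgeSet) => Φ G U e.1) = μ ∧
        ∀ ν : Measure (G.edgeSet → Bool), IsProbabilityMeasure ν → IsFUSF G ν → ν = μ := by
  obtain ⟨Φ, h1, h2, h3⟩ := universal_factor
  refine ⟨Φ, h1, h2, fun G hG => ?_⟩
  obtain ⟨μ, hp, hμ, hlaw⟩ := h3 G hG
  refine ⟨μ, hp, hμ, hlaw, fun ν hν hνF => ?_⟩
  refine ext_of_generate_finite _ generateFrom_cyl isPiSystem_cyl ?_
    (by rw [measure_univ, measure_univ])
  rintro _ ⟨A, σ, rfl⟩
  have h4 := hμ _ (Hcan_exhaustion G hG.1) A σ
  have h5 := hνF _ (Hcan_exhaustion G hG.1) A σ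
  have h6 := tendsto_nhds_unique h5 h4
  exact (ENNReal.toReal_eq_toReal_iff' (measure_ne_top _ _) (measure_ne_top _ _)).mp h6

end Vale.Agent.Results.P143.A_universal
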